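import Mathlib
import Vale.Agent.H96.P171.Defs
import Vale.Agent.H96.P171.Fekete
import Vale.Agent.H96.P171.Growth

/-!
# P171 moonshot: glue facts for `lp_deriv`

The side hypotheses of the abstract step (H5) (`lp5_core` / `not_differentiable_of_LP`), for the
truncated rescaled parameter `t''_n = (t_k / π for k < n, 0 beyond)`, stated for a general `π`,
and the limits of `rho n`, of the tails of `t` and of `π_n = ((l - r - 1)/l)^3` with `l = rho n`,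
`r = 4 rho (n-1) + 2`.
-/

open Filter Topology

namespace Vale.Agent.H96.P171

/-- The truncated rescaled parameter `t''`: the coordinates `k < n` of `t` divided by `π`. -/
noncomputable def glueTpp (t : ℕ → ℝ) (n : ℕ) (π : ℝ) : ℕ → ℝ :=
  fun k => if k < n then t k / π else 0

/-- `π_n = ((l - r - 1)/l)^3`, `l = rho n`, `r = 4 rho (n-1) + 2` (natural subtraction). -/
noncomputable def gluePi (n : ℕ) : ℝ :=
  (((rho n - (4 * rho (n - 1) + 2) - 1 : ℕ) : ℝ) / (rho n : ℝ)) ^ 3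

theorem glue_tpp_nonneg (t : ℕ → ℝ) (h : Adm t) (n : ℕ) (π : ℝ) (hπ : 0 < π) (k : ℕ) :
    0 ≤ glueTpp t n π k := by
  unfold glueTpp
  split_ifs
  · exact div_nonneg (h.1 k) hπ.le
  · exact le_rfl

theorem glue_tpp_summable (t : ℕ → ℝ) (n : ℕ) (π : ℝ) : Summable (glueTpp t n π) := by
  refine summable_of_ne_finset_zero (s := Finset.range n) fun k hk => ?_
  unfold glueTpp
  rw [if_neg]
  simpa using hk

/-- (G1) `t''` is admissible. -/
theorem glue_tpp_adm (t : ℕ → ℝ) (h : Adm t) (n : ℕ) (π : ℝ) (hπ : 0 < π) :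
    Adm (glueTpp t n π) :=
  ⟨glue_tpp_nonneg t h n π hπ, glue_tpp_summable t n π⟩

theorem glue_div_adm (t : ℕ → ℝ) (h : Adm t) (π : ℝ) (hπ : 0 < π) :
    Adm (fun k => t k / π) :=
  ⟨fun k => div_nonneg (h.1 k) hπ.le, h.2.div_const π⟩

theorem glue_two_adm (t : ℕ → ℝ) (h : Adm t) : Adm (fun k => 2 * t k) :=
  ⟨fun k => mul_nonneg (by norm_num) (h.1 k), h.2.mul_left 2⟩

theorem glue_tpp_le_div (t : ℕ → ℝ) (h : Adm t) (n : ℕ) (π : ℝ) (hπ : 0 < π) (k : ℕ) :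
    glueTpp t n π k ≤ t k / π := by
  unfold glueTpp
  split_ifs
  · exact le_rfl
  · exact div_nonneg (h.1 k) hπ.le

/-- (G1) the `ℓ¹` norm of `t''` is at most twice that of `t` when `π ≥ 1/2`. -/
theorem glue_tpp_sum (t : ℕ → ℝ) (h : Adm t) (n : ℕ) (π : ℝ) (hπ : 1 / 2 ≤ π) :
    ∑' k, glueTpp t n π k ≤ 2 * ∑' k, t k := by
  have hπ0 : 0 < π := by linarith
  rw [← tsum_mul_left]
  refine (glue_tpp_summable t n π).tsum_le_tsum (fun k => ?_) (h.2.mul_left 2)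
  refine le_trans (glue_tpp_le_div t h n π hπ0 k) ?_
  rw [div_le_iff₀ hπ0]
  nlinarith [h.1 k]

/-- (G2) comparison `Fp m t'' ≤ Fp m t + (1/π - 1) Fp m (2t)` (monotone in `t`, convex along the ray). -/
theorem glue_cmp (t : ℕ → ℝ) (h : Adm t) (n : ℕ) (π : ℝ) (hπ : 1 / 2 ≤ π) (hπ1 : π ≤ 1)
    (m : ℝ) :
    Fp m (glueTpp t n π) ≤ Fp m t + (1 / π - 1) * Fp m (fun k => 2 * t k) := by
  have hπ0 : 0 < π := by linarith
  have h2 := glue_two_adm t h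
  have hdiv := glue_div_adm t h π hπ0
  have h1 : Fp m (glueTpp t n π) ≤ Fp m (fun k => t k / π) :=
    Fp_mono m _ _ (glue_tpp_adm t h n π hπ0) hdiv (glue_tpp_le_div t h n π hπ0)
  have hb0 : 0 ≤ 1 / π - 1 := by
    rw [sub_nonneg, le_div_iff₀ hπ0]; linarith
  have hb1 : 1 / π - 1 ≤ 1 := by
    have : 1 / π ≤ 2 := by
      rw [div_le_iff₀ hπ0]; linarith
    linarith
  have hc := Fp_convex m m t (fun k => 2 * t k) h h2 (1 - (1 / π - 1)) (1 / π - 1)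
    (by linarith) hb0 (by ring)
  have e1 : (1 - (1 / π - 1)) * m + (1 / π - 1) * m = m := by ring
  have e2 : (fun k => (1 - (1 / π - 1)) * t k + (1 / π - 1) * (2 * t k)) = fun k => t k / π := by
    funext k; field_simp; ring
  rw [e1, e2] at hc
  have hF0 : 0 ≤ Fp m t := Fp_nonneg t h m
  nlinarith [mul_nonneg hb0 hF0]

/-- (G3) quadratic growth bound for `Fp · t''`, uniform in `n` and `π ∈ [1/2, ∞)`. -/
theorem glue_grow (t : ℕ → ℝ) (h : Adm t) (A : ℝ) (hA : 0 < A) :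
    ∃ C : ℝ, ∀ (n : ℕ) (π : ℝ), 1 / 2 ≤ π → ∀ m : ℝ,
      Fp m (glueTpp t n π) ≤ 1 + (max (m + C) 0) ^ 2 / (4 * A) := by
  obtain ⟨C, hC⟩ := growth (2 * ∑' k, t k) A hA
  refine ⟨C, fun n π hπ m => ?_⟩
  exact hC _ (glue_tpp_adm t h n π (by linarith)) (glue_tpp_sum t h n π hπ) m

/-- (G3) the same in the form `C0 + C1 m^2`. -/
theorem glue_grow_quad (t : ℕ → ℝ) (h : Adm t) (A : ℝ) (hA : 0 < A) :
    ∃ C0 : ℝ, ∀ (n : ℕ) (π : ℝ), 1 / 2 ≤ π → ∀ m : ℝ,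
      Fp m (glueTpp t n π) ≤ C0 + 1 / (2 * A) * m ^ 2 := by
  obtain ⟨C, hC⟩ := glue_grow t h A hA
  refine ⟨1 + C ^ 2 / (2 * A), fun n π hπ m => le_trans (hC n π hπ m) ?_⟩
  have h1 : (max (m + C) 0) ^ 2 ≤ 2 * m ^ 2 + 2 * C ^ 2 := by
    rcases max_cases (m + C) 0 with hc | hc
    · rw [hc.1]; nlinarith [sq_nonneg (m - C)]
    · rw [hc.1]; nlinarith [sq_nonneg m, sq_nonneg C]
  have h2 : (max (m + C) 0) ^ 2 / (4 * A) ≤ (2 * m ^ 2 + 2 * C ^ 2) / (4 * A) :=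
    div_le_div_of_nonneg_right h1 (by positivity)
  have e : (2 * m ^ 2 + 2 * C ^ 2) / (4 * A) = C ^ 2 / (2 * A) + 1 / (2 * A) * m ^ 2 := by
    field_simp; ring
  linarith

/-- (G4) `Fp · (2t)` is nonnegative. -/
theorem glue_Q_nonneg (t : ℕ → ℝ) (h : Adm t) (m : ℝ) : 0 ≤ Fp m (fun k => 2 * t k) :=
  Fp_nonneg _ (glue_two_adm t h) m

/-- (G4) `Fp · (2t)` is bounded above on every half-line `m ≤ K`. -/
theorem glue_Q_le (t : ℕ → ℝ) (h : Adm t) :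
    ∃ B : ℝ, 0 ≤ B ∧ ∀ K m : ℝ, m ≤ K → Fp m (fun k => 2 * t k) ≤ Real.exp (K + B) := by
  obtain ⟨B, hB0, hB⟩ := Fp_le (2 * ∑' k, t k)
  refine ⟨B, hB0, fun K m hm => ?_⟩
  have hs : ∑' k, 2 * t k ≤ 2 * ∑' k, t k := by rw [tsum_mul_left]
  refine le_trans (hB _ (glue_two_adm t h) hs m) ?_
  exact Real.exp_le_exp.mpr (by linarith)

/-- (G4) local boundedness form. -/
theorem glue_Q_bdd (t : ℕ → ℝ) (h : Adm t) (K : ℝ) :
    ∃ M : ℝ, ∀ m : ℝ, |m| ≤ K → Fp m (fun k => 2 * t k) ≤ M := by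
  obtain ⟨B, _, hB⟩ := glue_Q_le t h
  exact ⟨Real.exp (K + B), fun m hm => hB K m (le_trans (le_abs_self m) hm)⟩

/-- (G5) the tails of `t` are nonnegative. -/
theorem glue_tail_nonneg (t : ℕ → ℝ) (h : Adm t) (n : ℕ) : 0 ≤ ∑' k, t (k + n) :=
  tsum_nonneg fun k => h.1 (k + n)

/-- (G5) the tails of `t` tend to zero. -/
theorem glue_tail_tendsto (t : ℕ → ℝ) : Tendsto (fun n => ∑' k, t (k + n)) atTop (𝓝 0) :=
  tendsto_sum_nat_add t

/-- (G5) the tail is at most the full sum. -/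
theorem glue_tail_le (t : ℕ → ℝ) (h : Adm t) (n : ℕ) : ∑' k, t (k + n) ≤ ∑' k, t k := by
  have h1 := h.2.sum_add_tsum_nat_add n
  have h2 : 0 ≤ ∑ i ∈ Finset.range n, t i := Finset.sum_nonneg fun i _ => h.1 i
  linarith

theorem glue_rho_ge (n : ℕ) : n + 1 ≤ rho n := by
  unfold rho
  exact Nat.self_le_factorial (n + 1)

/-- (G5) `rho n ≥ 1`. -/
theorem glue_rho_one_le (n : ℕ) : (1 : ℝ) ≤ (rho n : ℝ) := by
  have := glue_rho_ge n
  have h1 : 1 ≤ rho n := by omega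
  exact_mod_cast h1

/-- (G5) `rho n → ∞`. -/
theorem glue_rho_tendsto : Tendsto (fun n => (rho n : ℝ)) atTop atTop := by
  refine tendsto_atTop_mono (fun n => ?_) tendsto_natCast_atTop_atTop
  have := glue_rho_ge n
  have h1 : n ≤ rho n := by omega
  exact_mod_cast h1

theorem glue_rho_succ (n : ℕ) (hn : 1 ≤ n) : rho n = (n + 1) * rho (n - 1) := by
  unfold rho
  obtain ⟨m, rfl⟩ : ∃ m, n = m + 1 := ⟨n - 1, by omega⟩
  simp [Nat.factorial_succ]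

/-- (G5) for `n ≥ 4` the cell side exceeds `r + 1`: `4 rho (n-1) + 2 + 1 < rho n`. -/
theorem glue_r_lt (n : ℕ) (hn : 4 ≤ n) : 4 * rho (n - 1) + 2 + 1 < rho n := by
  rw [glue_rho_succ n (by omega)]
  have h1 : n ≤ rho (n - 1) := by
    have := glue_rho_ge (n - 1)
    omega
  nlinarith

theorem glue_pi_base (n : ℕ) (hn : 4 ≤ n) :
    ((rho n - (4 * rho (n - 1) + 2) - 1 : ℕ) : ℝ) / (rho n : ℝ)
      = 1 - (4 * (rho (n - 1) : ℝ) + 3) / (rho n : ℝ) := by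
  have hlt := glue_r_lt n hn
  have hpos : (0 : ℝ) < (rho n : ℝ) := by linarith [glue_rho_one_le n]
  have hc : ((rho n - (4 * rho (n - 1) + 2) - 1 : ℕ) : ℝ)
      = (rho n : ℝ) - (4 * (rho (n - 1) : ℝ) + 3) := by
    rw [Nat.cast_sub (by omega), Nat.cast_sub (by omega)]
    push_cast; ring
  rw [hc]
  field_simp

theorem glue_pi_base_bounds (n : ℕ) (hn : 4 ≤ n) :
    1 - 7 / ((n : ℝ) + 1) ≤ ((rho n - (4 * rho (n - 1) + 2) - 1 : ℕ) : ℝ) / (rho n : ℝ) ∧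
      ((rho n - (4 * rho (n - 1) + 2) - 1 : ℕ) : ℝ) / (rho n : ℝ) ≤ 1 := by
  rw [glue_pi_base n hn]
  have hpos : (0 : ℝ) < (rho n : ℝ) := by linarith [glue_rho_one_le n]
  have h1 : (1 : ℝ) ≤ (rho (n - 1) : ℝ) := glue_rho_one_le (n - 1)
  have hs : (rho n : ℝ) = ((n : ℝ) + 1) * (rho (n - 1) : ℝ) := by
    have := glue_rho_succ n (by omega)
    rw [this]; push_cast; ring
  have hn1 : (0 : ℝ) < (n : ℝ) + 1 := by positivity
  constructor
  · have : (4 * (rho (n - 1) : ℝ) + 3) / (rho n : ℝ) ≤ 7 / ((n : ℝ) + 1) := by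
      rw [div_le_div_iff₀ hpos hn1, hs]
      nlinarith
    linarith
  · have : 0 ≤ (4 * (rho (n - 1) : ℝ) + 3) / (rho n : ℝ) := by positivity
    linarith

/-- (G5) `0 < π_n ≤ 1` for `n ≥ 7`, indeed `π_n ≥ (1 - 7/(n+1))^3`. -/
theorem glue_pi_bounds (n : ℕ) (hn : 7 ≤ n) :
    (1 - 7 / ((n : ℝ) + 1)) ^ 3 ≤ gluePi n ∧ gluePi n ≤ 1 ∧ 0 < gluePi n := by
  obtain ⟨h1, h2⟩ := glue_pi_base_bounds n (by omega)
  have hn1 : (8 : ℝ) ≤ (n : ℝ) + 1 := by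
    have : (7 : ℝ) ≤ (n : ℝ) := by exact_mod_cast hn
    linarith
  have h0 : 0 < 1 - 7 / ((n : ℝ) + 1) := by
    rw [sub_pos, div_lt_one (by linarith)]; linarith
  unfold gluePi
  refine ⟨pow_le_pow_left₀ h0.le h1 3, pow_le_one₀ (le_trans h0.le h1) h2, ?_⟩
  exact pow_pos (lt_of_lt_of_le h0 h1) 3

/-- (G5) `π_n → 1`. -/
theorem glue_pi_tendsto : Tendsto gluePi atTop (𝓝 1) := by
  have hlow : Tendsto (fun n : ℕ => (1 - 7 / ((n : ℝ) + 1)) ^ 3) atTop (𝓝 1) := by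
    have h1 : Tendsto (fun n : ℕ => (7 : ℝ) / ((n : ℝ) + 1)) atTop (𝓝 0) :=
      tendsto_const_nhds.div_atTop
        (tendsto_natCast_atTop_atTop.atTop_add tendsto_const_nhds)
    have h2 : Tendsto (fun n : ℕ => (1 - 7 / ((n : ℝ) + 1)) ^ 3) atTop (𝓝 ((1 - 0) ^ 3)) :=
      (tendsto_const_nhds.sub h1).pow 3
    simpa using h2
  refine tendsto_of_tendsto_of_tendsto_of_le_of_le' hlow tendsto_const_nhds ?_ ?_
  · filter_upwards [eventually_ge_atTop 7] with n hn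
    exact (glue_pi_bounds n hn).1
  · filter_upwards [eventually_ge_atTop 7] with n hn
    exact (glue_pi_bounds n hn).2.1

/-- (G5) eventually `π_n ≥ 1/2`. -/
theorem glue_pi_eventually_half : ∀ᶠ n in atTop, 1 / 2 ≤ gluePi n := by
  have h : ∀ᶠ n in atTop, (1 / 2 : ℝ) < gluePi n :=
    glue_pi_tendsto.eventually (lt_mem_nhds (by norm_num))
  filter_upwards [h] with n hn using hn.le

/-- (G5) `b n = 1/π_n - 1 → 0`. -/
theorem glue_b_tendsto : Tendsto (fun n => 1 / gluePi n - 1) atTop (𝓝 0) := by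
  have h1 : Tendsto (fun n => 1 / gluePi n) atTop (𝓝 (1 / 1)) :=
    tendsto_const_nhds.div glue_pi_tendsto one_ne_zero
  have h2 := h1.sub (tendsto_const_nhds (x := (1 : ℝ)))
  simpa using h2

/-- (G5) `b n = 1/π_n - 1 ≥ 0` for `n ≥ 7`. -/
theorem glue_b_nonneg (n : ℕ) (hn : 7 ≤ n) : 0 ≤ 1 / gluePi n - 1 := by
  obtain ⟨_, h1, h0⟩ := glue_pi_bounds n hn
  rw [sub_nonneg, le_div_iff₀ h0]; linarith

end Vale.Agent.H96.P171
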