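import Mathlib

/-!
# P171 helper: lower semicontinuity of a convex function on a cone (step (5))

Abstract form of step (5) of the P171 plan: a convex, nonnegative function on a convex set `D`
that is locally bounded above and admits meets (`w` below both `x` and `y` in the order of the
cone, with `F w ≤ F y`) is lower semicontinuous on `D`.  No interior point of `D` is needed.
-/

open Set Filter Topology

namespace Vale.Agent.H98.P171

/-- Quantitative core of step (5). -/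
theorem lsc_core {X : Type*} [NormedAddCommGroup X] [NormedSpace ℝ X] (D : Set X) (F : X → ℝ)
    (hconv : ConvexOn ℝ D F) (h0 : ∀ x ∈ D, 0 ≤ F x)
    (x : X) (hx : x ∈ D) (M : ℝ) (hM : ∀ z ∈ D, dist z x ≤ 2 → F z ≤ M)
    (y : X) (hxy : dist x y ≤ 1)
    (w : X) (hw : w ∈ D) (hFw : F w ≤ F y) (hdw : dist x w ≤ dist x y)
    (hray : ∀ S : ℝ, 0 ≤ S → w + S • (x - w) ∈ D) :
    F x - M * dist x y ≤ F y := by
  have hM0 : 0 ≤ M := le_trans (h0 x hx) (hM x hx (by simp))
  have hdxy : 0 ≤ dist x y := dist_nonneg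
  rcases eq_or_lt_of_le (dist_nonneg (x := x) (y := w)) with h | h
  · have hxw : x = w := dist_eq_zero.mp h.symm
    have hFx : F x = F w := by rw [hxw]
    nlinarith [mul_nonneg hM0 hdxy]
  · set δ : ℝ := dist x w with hδ
    have hδ1 : δ ≤ 1 := le_trans hdw hxy
    have hδn : δ = ‖x - w‖ := by rw [hδ, dist_eq_norm]
    set z : X := w + δ⁻¹ • (x - w) with hz
    have hzD : z ∈ D := hray δ⁻¹ (inv_nonneg.mpr h.le)
    have hzx : dist z x ≤ 2 := by
      have e : z - x = (δ⁻¹ - 1) • (x - w) := by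
        rw [hz, sub_smul, one_smul]; abel
      rw [dist_eq_norm, e, norm_smul, ← hδn, Real.norm_eq_abs]
      have h1 : 0 ≤ δ⁻¹ - 1 := by
        have : 1 ≤ δ⁻¹ := (one_le_inv₀ h).mpr hδ1
        linarith
      rw [abs_of_nonneg h1, sub_mul, inv_mul_cancel₀ h.ne']
      linarith
    have hFz : F z ≤ M := hM z hzD hzx
    have hxeq : x = (1 - δ) • w + δ • z := by
      rw [hz, smul_add, smul_smul, mul_inv_cancel₀ h.ne', one_smul, sub_smul, one_smul]; abel
    have hc : F ((1 - δ) • w + δ • z) ≤ (1 - δ) • F w + δ • F z :=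
      hconv.2 hw hzD (by linarith) h.le (by ring)
    rw [← hxeq] at hc
    simp only [smul_eq_mul] at hc
    have hFw0 : 0 ≤ F w := h0 w hw
    nlinarith [mul_nonneg hM0 (sub_nonneg.mpr hdw), mul_nonneg h.le (sub_nonneg.mpr hFz),
      mul_nonneg h.le hFw0]

/-- Step (5), abstract form: lower semicontinuity on `D` of a convex nonnegative function that is
locally bounded above on `D` and admits meets. -/
theorem lsc_of_convex_meet {X : Type*} [NormedAddCommGroup X] [NormedSpace ℝ X] (D : Set X)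
    (F : X → ℝ) (hconv : ConvexOn ℝ D F) (h0 : ∀ x ∈ D, 0 ≤ F x)
    (hbdd : ∀ x ∈ D, ∃ M : ℝ, ∀ z ∈ D, dist z x ≤ 2 → F z ≤ M)
    (hmeet : ∀ x ∈ D, ∀ y ∈ D, ∃ w ∈ D, F w ≤ F y ∧ dist x w ≤ dist x y ∧
      ∀ S : ℝ, 0 ≤ S → w + S • (x - w) ∈ D) :
    LowerSemicontinuousOn F D := by
  intro x hx c hc
  obtain ⟨M, hM⟩ := hbdd x hx
  have hM0 : 0 ≤ M := le_trans (h0 x hx) (hM x hx (by simp))
  have hpos : 0 < (F x - c) / (M + 1) := div_pos (by linarith) (by linarith)
  have hball : Metric.ball x (min 1 ((F x - c) / (M + 1))) ∈ 𝓝 x :=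
    Metric.ball_mem_nhds x (lt_min one_pos hpos)
  have hmem : D ∩ Metric.ball x (min 1 ((F x - c) / (M + 1))) ∈ 𝓝[D] x :=
    inter_mem_nhdsWithin D hball
  filter_upwards [hmem] with y hy
  obtain ⟨hyD, hyb⟩ := hy
  rw [Metric.mem_ball, dist_comm] at hyb
  have hd1 : dist x y ≤ 1 := (lt_of_lt_of_le hyb (min_le_left _ _)).le
  have hd2 : dist x y < (F x - c) / (M + 1) := lt_of_lt_of_le hyb (min_le_right _ _)
  obtain ⟨w, hw, hFw, hdw, hray⟩ := hmeet x hx y hyD
  have key := lsc_core D F hconv h0 x hx M hM y hd1 w hw hFw hdw hray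
  have h3 : dist x y * (M + 1) < F x - c := by
    rwa [lt_div_iff₀ (by linarith)] at hd2
  nlinarith [dist_nonneg (x := x) (y := y)]

/-! ### The concrete cone `ℝ × {t ∈ ℓ¹(ℕ) : t ≥ 0}` -/

/-- The cone `D = ℝ × {t ∈ ℓ¹ : t ≥ 0}` inside `ℝ × ℓ¹(ℕ)` (sup metric of the product). -/
def cone : Set (ℝ × lp (fun _ : ℕ => ℝ) 1) := {p | ∀ n, 0 ≤ p.2 n}

theorem mem_cone {p : ℝ × lp (fun _ : ℕ => ℝ) 1} : p ∈ cone ↔ ∀ n, 0 ≤ p.2 n := Iff.rfl

theorem isClosed_cone : IsClosed cone := by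
  have : cone = ⋂ n : ℕ, {p : ℝ × lp (fun _ : ℕ => ℝ) 1 | 0 ≤ p.2 n} := by
    ext p; simp [cone]
  rw [this]
  refine isClosed_iInter fun n => ?_
  have hc : Continuous fun p : ℝ × lp (fun _ : ℕ => ℝ) 1 => p.2 n :=
    (lp.lipschitzWith_one_eval (E := fun _ : ℕ => ℝ) 1 n).continuous.comp continuous_snd
  exact isClosed_le continuous_const hc

theorem convex_cone : Convex ℝ cone := by
  intro x hx y hy a b ha hb _ n
  have h1 := hx n
  have h2 := hy n
  simp only [Prod.snd_add, Prod.smul_snd, lp.coeFn_add, lp.coeFn_smul, Pi.add_apply,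
    Pi.smul_apply, smul_eq_mul]
  positivity

/-- Pointwise minimum of two `ℓ¹` sequences, as an element of `ℓ¹`. -/
noncomputable def lpMin (s t : lp (fun _ : ℕ => ℝ) 1) : lp (fun _ : ℕ => ℝ) 1 :=
  ⟨fun n => min (s n) (t n), by
    have hs : Memℓp (fun n => |s n| + |t n|) 1 := by
      have h1 := (lp.memℓp s).norm
      have h2 := (lp.memℓp t).norm
      have h3 := h1.add h2
      have e : (fun n => |s n| + |t n|) = (fun i => ‖s i‖) + fun i => ‖t i‖ := by
        funext n; simp [Real.norm_eq_abs]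
      rw [e]; exact h3
    refine hs.mono fun n => ?_
    rw [Real.norm_eq_abs]
    rcases min_cases (s n) (t n) with h | h
    · rw [h.1]; linarith [abs_nonneg (t n)]
    · rw [h.1]; linarith [abs_nonneg (s n)]⟩

@[simp] theorem lpMin_apply (s t : lp (fun _ : ℕ => ℝ) 1) (n : ℕ) :
    lpMin s t n = min (s n) (t n) := rfl

/-- Step (5) on the concrete cone: a convex, nonnegative, locally bounded function on
`D = ℝ × {t ∈ ℓ¹ : t ≥ 0}` that is nondecreasing in `t` (coordinatewise, on the cone) is lower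
semicontinuous on `D`. -/
theorem lsc_on_cone (F : ℝ × lp (fun _ : ℕ => ℝ) 1 → ℝ)
    (hconv : ConvexOn ℝ cone F) (h0 : ∀ x ∈ cone, 0 ≤ F x)
    (hbdd : ∀ x ∈ cone, ∃ M : ℝ, ∀ z ∈ cone, dist z x ≤ 2 → F z ≤ M)
    (hmono : ∀ (m : ℝ) (s t : lp (fun _ : ℕ => ℝ) 1), (∀ n, 0 ≤ s n) → (∀ n, s n ≤ t n) →
      F (m, s) ≤ F (m, t)) :
    LowerSemicontinuousOn F cone := by
  refine lsc_of_convex_meet cone F hconv h0 hbdd ?_
  intro x hx y hy
  refine ⟨(y.1, lpMin x.2 y.2), ?_, ?_, ?_, ?_⟩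
  · intro n
    exact le_min (hx n) (hy n)
  · exact hmono y.1 (lpMin x.2 y.2) y.2 (fun n => le_min (hx n) (hy n))
      (fun n => min_le_right _ _)
  · rw [Prod.dist_eq, Prod.dist_eq]
    refine max_le_max le_rfl ?_
    rw [dist_eq_norm, dist_eq_norm]
    refine lp.norm_mono (by simp) fun n => ?_
    simp only [lp.coeFn_sub, Pi.sub_apply, lpMin_apply, Real.norm_eq_abs]
    rcases min_cases (x.2 n) (y.2 n) with h | h
    · rw [h.1]; simp
    · rw [h.1]
  · intro S hS n
    have h1 := hx n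
    have h2 := hy n
    simp only [Prod.snd_add, Prod.smul_snd, Prod.snd_sub, lp.coeFn_add, lp.coeFn_smul,
      lp.coeFn_sub, Pi.add_apply, Pi.smul_apply, Pi.sub_apply, lpMin_apply, smul_eq_mul]
    have h3 : 0 ≤ min (x.2 n) (y.2 n) := le_min h1 h2
    have h4 : 0 ≤ x.2 n - min (x.2 n) (y.2 n) := sub_nonneg.mpr (min_le_left _ _)
    positivity

end Vale.Agent.H98.P171
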